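import Vale.Agent.Lib.P309.Main

/-!
# P309: memory-sample tradeoff for noiseless Gaussian linear regression

Every `M`-bit learner that reaches accuracy `ε` with probability at least `2/3` after `T` samples
satisfies `c d log(1/ε) ≤ (T + d) (1 + M / d²)`; in particular `T ≥ c d log(1/ε)` if `M ≤ d²`.
-/

open P309 in
theorem Vale.Agent.Results.P309.A_full.result :
    ∃ c : ℝ, 0 < c ∧ ∃ ε₀ : ℝ, 0 < ε₀ ∧ ∃ d₀ : ℕ, ∀ d, d₀ ≤ d →
      ∀ ε : ℝ, 0 < ε → ε < ε₀ → ∀ (M T : ℕ) (A : Learner d M), 2 / 3 ≤ successProb A T ε →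
        c * d * Real.log (1 / ε) ≤ ((T : ℝ) + d) * (1 + (M : ℝ) / (d : ℝ) ^ 2) ∧
        ((M : ℝ) ≤ (d : ℝ) ^ 2 → c * d * Real.log (1 / ε) ≤ T) :=
  _root_.P309.tradeoff
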