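import Vale.Agent.Lib.P309.StopMain

open MeasureTheory ProbabilityTheory

open P309

namespace Vale.Agent.Results.P309.B_stopping

/-- The positive answer to Q1 for learners with explicit randomized stopping decisions. -/
theorem result : ∃ c : ℝ, 0 < c ∧ ∃ ε₀ : ℝ, 0 < ε₀ ∧ ∃ d₀ : ℕ, ∀ d, d₀ ≤ d →
    ∀ ε : ℝ, 0 < ε → ε < ε₀ → ∀ (M T : ℕ) (S : StopLearner d M), 2 / 3 ≤ stopSuccessProb S T ε →
      c * d * Real.log (1 / ε) ≤ ((T : ℝ) + d) * (1 + (M : ℝ) / (d : ℝ) ^ 2) ∧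
      ((M : ℝ) ≤ (d : ℝ) ^ 2 → c * d * Real.log (1 / ε) ≤ T) :=
  stop_tradeoff

end Vale.Agent.Results.P309.B_stopping
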